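import Mathlib

namespace Vale.Agent.P038

open Finset

variable {V : Type*} [DecidableEq V]

/-- Image of a set under a set valued map. -/
def G (g : V → Finset V) (S : Finset V) : Finset V := S.biUnion g

lemma mem_G {g : V → Finset V} {S : Finset V} {x : V} : x ∈ G g S ↔ ∃ s ∈ S, x ∈ g s := by
  simp [G]

lemma G_mono {g : V → Finset V} {S T : Finset V} (h : S ⊆ T) : G g S ⊆ G g T := by
  intro x hx
  obtain ⟨s, hs, hx⟩ := mem_G.1 hx
  exact mem_G.2 ⟨s, h hs, hx⟩

/-- The min-cut function. -/
noncomputable def nu (g : V → Finset V) (σ A B : Finset V) : ℕ :=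
  sInf {k | ∃ S, σ ⊆ S ∧ S ⊆ A ∧ k = (A \ S).card + (G g S ∩ B).card}

lemma nu_le {g : V → Finset V} {σ A B S : Finset V} (h1 : σ ⊆ S) (h2 : S ⊆ A) :
    nu g σ A B ≤ (A \ S).card + (G g S ∩ B).card :=
  Nat.sInf_le ⟨S, h1, h2, rfl⟩

lemma nu_exists {g : V → Finset V} {σ A : Finset V} (B : Finset V) (h : σ ⊆ A) :
    ∃ S, σ ⊆ S ∧ S ⊆ A ∧ nu g σ A B = (A \ S).card + (G g S ∩ B).card :=
  Nat.sInf_mem (s := {k | ∃ S, σ ⊆ S ∧ S ⊆ A ∧ k = (A \ S).card + (G g S ∩ B).card})
    ⟨_, A, h, Subset.refl _, rfl⟩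

lemma nu_empty {g : V → Finset V} {σ A : Finset V} (h : σ ⊆ A) : nu g σ A ∅ = 0 := by
  have := nu_le (g := g) (B := ∅) h (Subset.refl A)
  simpa using this

lemma nu_mono {g : V → Finset V} {σ A B B' : Finset V} (h : σ ⊆ A) (hB : B ⊆ B') :
    nu g σ A B ≤ nu g σ A B' := by
  obtain ⟨S, h1, h2, h3⟩ := nu_exists (g := g) B' h
  have := nu_le (g := g) (B := B) h1 h2
  have h4 : (G g S ∩ B).card ≤ (G g S ∩ B').card :=
    card_le_card (inter_subset_inter_left hB)
  omega

lemma nu_insert_le {g : V → Finset V} {σ A B : Finset V} (x : V) (h : σ ⊆ A) :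
    nu g σ A (insert x B) ≤ nu g σ A B + 1 := by
  obtain ⟨S, h1, h2, h3⟩ := nu_exists (g := g) B h
  have := nu_le (g := g) (B := insert x B) h1 h2
  have h4 : (G g S ∩ insert x B).card ≤ (G g S ∩ B).card + 1 := by
    refine le_trans (card_le_card ?_) (card_insert_le x _)
    intro y hy
    simp only [mem_inter, mem_insert] at hy ⊢
    tauto
  omega

lemma nu_insert_of_notMem {g : V → Finset V} {σ A B : Finset V} {x : V} (h : σ ⊆ A)
    (hx : x ∉ G g A) : nu g σ A (insert x B) ≤ nu g σ A B := by
  obtain ⟨S, h1, h2, h3⟩ := nu_exists (g := g) B h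
  have := nu_le (g := g) (B := insert x B) h1 h2
  have h4 : (G g S ∩ insert x B).card ≤ (G g S ∩ B).card := by
    refine card_le_card ?_
    intro y hy
    simp only [mem_inter, mem_insert] at hy ⊢
    rcases hy with ⟨hy, rfl | hy'⟩
    · exact absurd (G_mono h2 hy) hx
    · exact ⟨hy, hy'⟩
  omega

/-- Marginals increase in the source data and decrease in the target set. -/
lemma nu_marginal {g : V → Finset V} {σ σ' A A' B B' : Finset V} {x : V}
    (h : σ ⊆ A) (h' : σ' ⊆ A') (hσ : σ ⊆ σ') (hA : A ⊆ A') (hB : B' ⊆ B) :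
    nu g σ A (insert x B) + nu g σ' A' B' ≤ nu g σ A B + nu g σ' A' (insert x B') := by
  obtain ⟨S, h1, h2, h3⟩ := nu_exists (g := g) B h
  obtain ⟨S', h1', h2', h3'⟩ := nu_exists (g := g) (insert x B') h'
  have e1 := nu_le (g := g) (σ := σ) (A := A) (B := insert x B) (S := S ∩ S')
    (subset_inter h1 (hσ.trans h1')) (inter_subset_left.trans h2)
  have e2 := nu_le (g := g) (σ := σ') (A := A') (B := B') (S := S ∪ S')
    (h1'.trans subset_union_right) (union_subset (h2.trans hA) h2')
  have e3 : (A \ (S ∩ S')).card + (A' \ (S ∪ S')).card ≤ (A \ S).card + (A' \ S').card := by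
    rw [← card_union_add_card_inter (A \ S) (A' \ S'),
      ← card_union_add_card_inter (A \ (S ∩ S')) (A' \ (S ∪ S'))]
    refine Nat.add_le_add (card_le_card ?_) (card_le_card ?_)
    · intro y hy
      have := @hA y
      simp only [mem_union, mem_sdiff, mem_inter] at hy ⊢
      tauto
    · intro y hy
      simp only [mem_union, mem_sdiff, mem_inter] at hy ⊢
      tauto
  have e4 : (G g (S ∩ S') ∩ insert x B).card + (G g (S ∪ S') ∩ B').card ≤
      (G g S ∩ B).card + (G g S' ∩ insert x B').card := by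
    rw [← card_union_add_card_inter (G g S ∩ B) (G g S' ∩ insert x B'),
      ← card_union_add_card_inter (G g (S ∩ S') ∩ insert x B) (G g (S ∪ S') ∩ B')]
    have a1 : G g (S ∩ S') ⊆ G g S := G_mono inter_subset_left
    have a2 : G g (S ∩ S') ⊆ G g S' := G_mono inter_subset_right
    have a3 : ∀ y, y ∈ G g (S ∪ S') → y ∈ G g S ∨ y ∈ G g S' := by
      intro y hy
      obtain ⟨s, hs, hy⟩ := mem_G.1 hy
      rcases mem_union.1 hs with hs | hs
      · exact Or.inl (mem_G.2 ⟨s, hs, hy⟩)
      · exact Or.inr (mem_G.2 ⟨s, hs, hy⟩)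
    refine Nat.add_le_add (card_le_card ?_) (card_le_card ?_)
    · intro y hy
      have := @a1 y
      have := @a2 y
      have := a3 y
      have := @hB y
      simp only [mem_union, mem_inter, mem_insert] at hy ⊢
      tauto
    · intro y hy
      have := @a1 y
      have := @a2 y
      have := @hB y
      simp only [mem_inter, mem_insert] at hy ⊢
      tauto
  omega

variable [LinearOrder V]

/-- The greedy set. -/
noncomputable def Phi (g : V → Finset V) (σ A B : Finset V) : Finset V :=
  B.filter fun x => nu g σ A (B.filter (· < x)) < nu g σ A (insert x (B.filter (· < x)))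

lemma card_Phi {g : V → Finset V} {σ A : Finset V} (h : σ ⊆ A) (B : Finset V) :
    (Phi g σ A B).card = nu g σ A B := by
  induction B using Finset.induction_on_max with
  | empty => simp [Phi, nu_empty h]
  | insert a s hs ih =>
    have ha : a ∉ s := fun h => lt_irrefl _ (hs a h)
    have e1 : (insert a s).filter (· < a) = s := by
      ext y
      simp only [mem_filter, mem_insert]
      constructor
      · rintro ⟨rfl | h, h2⟩
        · exact absurd h2 (lt_irrefl _)
        · exact h
      · intro h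
        exact ⟨Or.inr h, hs y h⟩
    have e2 : ∀ x ∈ s, (insert a s).filter (· < x) = s.filter (· < x) := by
      intro x hx
      ext y
      simp only [mem_filter, mem_insert]
      constructor
      · rintro ⟨rfl | h, h2⟩
        · exact absurd (hs x hx) (not_lt.2 h2.le)
        · exact ⟨h, h2⟩
      · rintro ⟨h, h2⟩
        exact ⟨Or.inr h, h2⟩
    have e3 : s.filter (fun x => nu g σ A ((insert a s).filter (· < x)) <
        nu g σ A (insert x ((insert a s).filter (· < x)))) = Phi g σ A s := by
      unfold Phi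
      refine filter_congr ?_
      intro x hx
      rw [e2 x hx]
    have m1 := nu_mono (g := g) h (subset_insert a s)
    have m2 := nu_insert_le (g := g) (B := s) a h
    unfold Phi
    rw [filter_insert, e3, e1]
    split_ifs with hc
    · rw [card_insert_of_notMem, ih]
      · omega
      · intro hh
        exact ha (mem_filter.1 hh).1
    · rw [ih]
      omega

lemma Phi_subset_G {g : V → Finset V} {σ A : Finset V} (h : σ ⊆ A) (B : Finset V) :
    Phi g σ A B ⊆ G g A := by
  intro x hx
  by_contra hc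
  have := (mem_filter.1 hx).2
  have := nu_insert_of_notMem (g := g) (B := B.filter (· < x)) h hc
  omega

lemma G_opt_subset_Phi {g : V → Finset V} {σ A B S : Finset V} (h1 : σ ⊆ S) (h2 : S ⊆ A)
    (h3 : nu g σ A B = (A \ S).card + (G g S ∩ B).card) : G g S ∩ B ⊆ Phi g σ A B := by
  intro x hx
  have h := h1.trans h2
  have hxB := (mem_inter.1 hx).2
  refine mem_filter.2 ⟨hxB, ?_⟩
  have e1 := nu_marginal (g := g) (x := x) (B := B.erase x) (B' := B.filter (· < x)) h h
    (Subset.refl _) (Subset.refl _)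
    (by
      intro y hy
      obtain ⟨hy1, hy2⟩ := mem_filter.1 hy
      exact mem_erase.2 ⟨ne_of_lt hy2, hy1⟩)
  rw [insert_erase hxB] at e1
  have e2 := nu_le (g := g) (B := B.erase x) h1 h2
  have e3 : (G g S ∩ B.erase x).card + 1 = (G g S ∩ B).card := by
    rw [inter_erase, card_erase_add_one hx]
  omega

lemma Phi_transfer {g : V → Finset V} {σ σ' A A' B B' : Finset V} {x : V}
    (h : σ ⊆ A) (h' : σ' ⊆ A') (hσ : σ ⊆ σ') (hA : A ⊆ A') (hB : B' ⊆ B)
    (hx : x ∈ Phi g σ A B) (hx' : x ∈ B') : x ∈ Phi g σ' A' B' := by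
  refine mem_filter.2 ⟨hx', ?_⟩
  have e0 := (mem_filter.1 hx).2
  have e1 := nu_marginal (g := g) (x := x) (B := B.filter (· < x)) (B' := B'.filter (· < x))
    h h' hσ hA (filter_subset_filter _ hB)
  omega

end Vale.Agent.P038
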