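import Mathlib
import Vale.Agent.P038.Greedy

namespace Vale.Agent.P038

open Finset

variable {V : Type*} [DecidableEq V] [Fintype V]

/-- Transpose of a family of sets. -/
def tr (F : V → Finset V) (u : V) : Finset V := univ.filter fun x => u ∈ F x

lemma mem_tr {F : V → Finset V} {u x : V} : x ∈ tr F u ↔ u ∈ F x := by simp [tr]

lemma sum_tr (F : V → Finset V) : ∑ u, (tr F u).card = ∑ x, (F x).card := by
  have h1 : ∀ u, (tr F u).card = ∑ x, if u ∈ F x then 1 else 0 := by
    intro u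
    rw [tr, card_filter]
  have h2 : ∀ x, (F x).card = ∑ u, if u ∈ F x then 1 else 0 := by
    intro x
    rw [← card_filter]
    congr 1
    ext u
    simp
  simp only [h1, h2]
  exact sum_comm

/-- Compatible pairs of families. -/
def Compat (g : V → Finset V) (P Y : V → Finset V) : Prop :=
  (∀ u, u ∈ P u) ∧ (∀ u, u ∈ Y u) ∧ ∀ u x, x ∈ G g (P u) → u ∈ G g (Y x) → u = x

/-- The cost of a pair of families. -/
def cost (g : V → Finset V) (P Y : V → Finset V) : ℤ :=
  ∑ u, ((G g (P u)).card : ℤ) + ∑ u, ((G g (Y u)).card : ℤ) - ∑ u, ((P u).card : ℤ) -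
    ∑ u, ((Y u).card : ℤ)

lemma Compat.symm {g : V → Finset V} {P Y : V → Finset V} (h : Compat g P Y) : Compat g Y P :=
  ⟨h.2.1, h.1, fun u x h1 h2 => (h.2.2 x u h2 h1).symm⟩

lemma Compat.self_notMem {g : V → Finset V} (hr : ∀ v, v ∈ g v) {P Y : V → Finset V}
    (h : Compat g P Y) (u : V) : u ∉ G g ((G g (P u)).erase u) := by
  intro hu
  obtain ⟨t, ht, hu⟩ := mem_G.1 hu
  obtain ⟨ht1, ht2⟩ := mem_erase.1 ht
  exact ht1 (h.2.2 u t ht2 (mem_G.2 ⟨t, h.2.1 t, hu⟩)).symm

lemma Compat.row_bound {g : V → Finset V} (hr : ∀ v, v ∈ g v) {P Y : V → Finset V}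
    (h : Compat g P Y) (u : V) :
    Fintype.card V + 1 ≤ (G g (G g (P u))).card + (univ \ G g ((G g (P u)).erase u)).card := by
  have h1 := h.self_notMem hr u
  have h2 : insert u (G g ((G g (P u)).erase u)) ⊆ G g (G g (P u)) := by
    refine insert_subset ?_ (G_mono (erase_subset _ _))
    exact mem_G.2 ⟨u, mem_G.2 ⟨u, h.1 u, hr u⟩, hr u⟩
  have h3 := card_le_card h2
  rw [card_insert_of_notMem h1] at h3
  have h4 := card_sdiff_add_card_eq_card (subset_univ (G g ((G g (P u)).erase u)))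
  rw [card_univ] at h4
  omega

lemma exists_nonclosed [Nonempty V] {g : V → Finset V} (hr : ∀ v, v ∈ g v)
    (hout : ∀ v, ∃ w ∈ g v, w ≠ v) {P Y : V → Finset V} (h : Compat g P Y) :
    ∃ u, G g (P u) ≠ P u := by
  by_contra hc
  push Not at hc
  obtain ⟨K, hK, hmin⟩ := exists_min_image
    (univ.filter fun K : Finset V => K.Nonempty ∧ G g K ⊆ K) card
    ⟨univ, by simp [univ_nonempty]⟩
  simp only [mem_filter, mem_univ, true_and] at hK hmin
  obtain ⟨⟨u, hu⟩, hKc⟩ := hK
  have e1 : K ⊆ P u := by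
    have a1 : G g (K ∩ P u) ⊆ K ∩ P u := by
      refine subset_inter ((G_mono inter_subset_left).trans hKc) ?_
      rw [← hc u]
      exact G_mono (by rw [hc u]; exact inter_subset_right)
    have a2 := hmin (K ∩ P u) ⟨⟨u, mem_inter.2 ⟨hu, h.1 u⟩⟩, a1⟩
    have a3 := eq_of_subset_of_card_le (inter_subset_left (s₁ := K) (s₂ := P u)) a2
    rw [← a3]
    exact inter_subset_right
  obtain ⟨w, hw, hwu⟩ := hout u
  have e2 : G g (K.erase u) ⊆ K.erase u := by
    intro x hx
    refine mem_erase.2 ⟨?_, hKc (G_mono (erase_subset _ _) hx)⟩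
    rintro rfl
    refine h.self_notMem hr x (G_mono ?_ hx)
    rw [hc x]
    exact erase_subset_erase _ e1
  have e3 := hmin (K.erase u) ⟨⟨w, mem_erase.2 ⟨hwu, hKc (mem_G.2 ⟨u, hu, hw⟩)⟩⟩, e2⟩
  have := card_erase_lt_of_mem hu
  omega

lemma improve [LinearOrder V] {g : V → Finset V} (hr : ∀ v, v ∈ g v) {P Y : V → Finset V}
    (h : Compat g P Y) :
    ∃ P1 T, Compat g P1 T ∧ cost g P1 T + ∑ u, ((G g (P u)).card : ℤ) +
      ∑ u, ((G g (Y u)).card : ℤ) + ∑ u, ((univ \ G g ((G g (P u)).erase u)).card : ℤ) +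
      ∑ u, ((univ \ G g ((G g (Y u)).erase u)).card : ℤ) ≤
      2 * ∑ _u : V, ((Fintype.card V : ℤ) + 1) := by
  classical
  set Z : V → Finset V := fun u => (G g (P u)).erase u with hZ
  set B : V → Finset V := fun u => (G g (Y u)).erase u with hB
  set P' : V → Finset V := tr fun w => univ \ G g (B w) with hP'
  set Y' : V → Finset V := fun u => univ \ G g (Z u) with hY'
  set E : V → Finset V := fun u => univ \ (G g (P u) ∪ tr (fun x => G g (Y x)) u) with hE
  have mP' : ∀ v w, w ∈ P' v ↔ v ∉ G g (B w) := by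
    intro v w
    simp [hP', mem_tr]
  have mY' : ∀ u x, x ∈ Y' u ↔ x ∉ G g (Z u) := by
    intro u x
    simp [hY']
  have sP' : ∀ v, ({v} : Finset V) ⊆ P' v := by
    intro v
    rw [singleton_subset_iff, mP']
    exact h.symm.self_notMem hr v
  choose P1 hP1 hP2 hP3 using fun v => nu_exists (g := g) univ (sP' v)
  set Φ : V → Finset V := fun v => Phi g {v} (P' v) univ with hΦ
  set T' : V → Finset V := fun u => (Y' u).filter fun x => x = u ∨ ∀ v ∈ g u, x ∉ Φ v with hT'
  set T : V → Finset V := tr T' with hT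
  have key : ∀ v x, x ∈ Φ v → v ∈ G g (T x) → v = x := by
    intro v x h1 h2
    obtain ⟨u, hu, hv⟩ := mem_G.1 h2
    have hu' := (mem_filter.1 (mem_tr.1 hu)).2
    rcases hu' with rfl | hu'
    · by_contra hne
      obtain ⟨t, ht, hx⟩ := mem_G.1 (Phi_subset_G (sP' v) univ h1)
      rw [mP'] at ht
      apply ht
      by_cases hxt : x = t
      · subst hxt
        exact mem_G.2 ⟨v, mem_erase.2 ⟨hne, mem_G.2 ⟨x, h.2.1 x, hv⟩⟩, hr v⟩
      · exact mem_G.2 ⟨x, mem_erase.2 ⟨hxt, mem_G.2 ⟨t, h.2.1 t, hx⟩⟩, hv⟩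
    · exact absurd h1 (hu' v hv)
  have hsub : ∀ v, G g (P1 v) ⊆ Φ v := by
    intro v
    have := G_opt_subset_Phi (hP1 v) (hP2 v) (hP3 v)
    rwa [inter_univ] at this
  refine ⟨P1, T, ⟨fun u => singleton_subset_iff.1 (hP1 u), fun u => ?_,
    fun u x h1 h2 => key u x (hsub u h1) h2⟩, ?_⟩
  · refine mem_tr.2 (mem_filter.2 ⟨?_, Or.inl rfl⟩)
    rw [mY']
    exact h.self_notMem hr u
  have b1 : ∀ u, (G g (P u)).card + (tr (fun x => G g (Y x)) u).card + (E u).card ≤
      Fintype.card V + 1 := by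
    intro u
    have a1 := card_union_add_card_inter (G g (P u)) (tr (fun x => G g (Y x)) u)
    have a2 : (G g (P u) ∩ tr (fun x => G g (Y x)) u).card ≤ 1 := by
      rw [← card_singleton u]
      refine card_le_card ?_
      intro x hx
      obtain ⟨hx1, hx2⟩ := mem_inter.1 hx
      exact mem_singleton.2 (h.2.2 u x hx1 (mem_tr.1 hx2)).symm
    have a3 := card_sdiff_add_card_eq_card
      (subset_univ (G g (P u) ∪ tr (fun x => G g (Y x)) u))
    rw [card_univ] at a3
    simp only [hE]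
    omega
  have b2 : ∀ v, (P' v).card + (G g (P1 v)).card = (Φ v).card + (P1 v).card := by
    intro v
    have a1 := card_Phi (g := g) (sP' v) univ
    have a2 := hP3 v
    rw [inter_univ] at a2
    have a3 := card_sdiff_add_card_eq_card (hP2 v)
    simp only [hΦ]
    omega
  have b3 : ∀ v, (tr (fun x => G g (T x)) v).card + (Φ v).card ≤ Fintype.card V + 1 := by
    intro v
    have a1 := card_union_add_card_inter (tr (fun x => G g (T x)) v) (Φ v)
    have a2 : (tr (fun x => G g (T x)) v ∩ Φ v).card ≤ 1 := by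
      rw [← card_singleton v]
      refine card_le_card ?_
      intro x hx
      obtain ⟨hx1, hx2⟩ := mem_inter.1 hx
      exact mem_singleton.2 (key v x hx2 (mem_tr.1 hx1)).symm
    have a3 := card_le_univ (tr (fun x => G g (T x)) v ∪ Φ v)
    omega
  have b4 : ∀ u, (Y' u).card ≤ (T' u).card + (E u).card := by
    intro u
    set W : Finset V := (g u).biUnion P' with hW
    set D : Finset V := (Y' u).erase u with hD
    have sW : g u ⊆ W := by
      intro v hv
      exact mem_biUnion.2 ⟨v, hv, singleton_subset_iff.1 (sP' v)⟩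
    have a1 : Y' u ⊆ T' u ∪ Phi g (g u) W D := by
      intro x hx
      by_cases hc : x = u ∨ ∀ v ∈ g u, x ∉ Φ v
      · exact mem_union_left _ (mem_filter.2 ⟨hx, hc⟩)
      · push Not at hc
        obtain ⟨hxu, v, hv, hxv⟩ := hc
        refine mem_union_right _ ?_
        exact Phi_transfer (sP' v) sW (singleton_subset_iff.2 hv)
          (fun y hy => mem_biUnion.2 ⟨v, hv, hy⟩) (subset_univ _) hxv (mem_erase.2 ⟨hxu, hx⟩)
    have a2 := card_Phi (g := g) sW D
    have a3 := nu_le (g := g) (σ := g u) (A := W) (B := D)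
      (S := W.filter fun m => ∀ x ∈ g m, x ∉ D)
      (by
        intro v hv
        refine mem_filter.2 ⟨sW hv, ?_⟩
        intro x hx hxD
        obtain ⟨hxu, hxY⟩ := mem_erase.1 hxD
        rw [mY'] at hxY
        apply hxY
        by_cases hvu : v = u
        · subst hvu
          exact mem_G.2 ⟨x, mem_erase.2 ⟨hxu, mem_G.2 ⟨v, h.1 v, hx⟩⟩, hr x⟩
        · exact mem_G.2 ⟨v, mem_erase.2 ⟨hvu, mem_G.2 ⟨u, h.1 u, hv⟩⟩, hx⟩)
      (filter_subset _ _)
    have a4 : G g (W.filter fun m => ∀ x ∈ g m, x ∉ D) ∩ D = ∅ := by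
      refine eq_empty_of_forall_notMem ?_
      intro x hx
      obtain ⟨hx1, hx2⟩ := mem_inter.1 hx
      obtain ⟨m, hm, hx1⟩ := mem_G.1 hx1
      exact (mem_filter.1 hm).2 x hx1 hx2
    have a5 : W \ (W.filter fun m => ∀ x ∈ g m, x ∉ D) ⊆ E u := by
      intro m hm
      obtain ⟨hm1, hm2⟩ := mem_sdiff.1 hm
      have hm3 : ∃ x ∈ g m, x ∈ D := by
        by_contra hc
        push Not at hc
        exact hm2 (mem_filter.2 ⟨hm1, hc⟩)
      obtain ⟨x, hx, hxD⟩ := hm3
      obtain ⟨hxu, hxY⟩ := mem_erase.1 hxD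
      rw [mY'] at hxY
      obtain ⟨v, hv, hmv⟩ := mem_biUnion.1 hm1
      rw [mP'] at hmv
      have hmu : m ≠ u := by
        rintro rfl
        exact hxY (mem_G.2 ⟨x, mem_erase.2 ⟨hxu, mem_G.2 ⟨m, h.1 m, hx⟩⟩, hr x⟩)
      refine mem_sdiff.2 ⟨mem_univ _, ?_⟩
      intro hc
      rcases mem_union.1 hc with hc | hc
      · exact hxY (mem_G.2 ⟨m, mem_erase.2 ⟨hmu, hc⟩, hx⟩)
      · exact hmv (mem_G.2 ⟨u, mem_erase.2 ⟨hmu.symm, mem_tr.1 hc⟩, hv⟩)
    have a6 := card_le_card a1
    have a7 := card_union_le (T' u) (Phi g (g u) W D)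
    have a8 := card_le_card a5
    rw [a4, card_empty] at a3
    omega
  have s1 := sum_le_sum (s := univ) fun u _ => b1 u
  have s2 := sum_congr (s₁ := univ) rfl fun u _ => b2 u
  have s3 := sum_le_sum (s := univ) fun u _ => b3 u
  have s4 := sum_le_sum (s := univ) fun u _ => b4 u
  simp only [sum_add_distrib] at s1 s2 s3 s4
  rw [sum_tr] at s1 s3
  have s5 : ∑ u, (T u).card = ∑ u, (T' u).card := sum_tr T'
  have s6 : ∑ u, (P' u).card = ∑ u, (univ \ G g (B u)).card := sum_tr _
  unfold cost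
  simp only [sum_add_distrib]
  simp only [← Nat.cast_sum]
  have s7 : (∑ _u : V, (1 : ℤ)) = ((∑ _u : V, 1 : ℕ) : ℤ) := by simp
  rw [s7]
  simp only [hY'] at s4
  simp only [hZ, hB] at s4 s6
  omega

theorem no_SI [Nonempty V] {g : V → Finset V} (hr : ∀ v, v ∈ g v)
    (hanti : ∀ u v, v ∈ g u → u ∈ g v → u = v) (hout : ∀ v, ∃ w ∈ g v, w ≠ v)
    (hSI : ∀ S, G g S ≠ S → (G g (G g S)).card + S.card < 2 * (G g S).card) : False := by
  classical
  letI : LinearOrder V := LinearOrder.lift' (Fintype.equivFin V) (Fintype.equivFin V).injective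
  have hSI' : ∀ S, (G g (G g S)).card + S.card ≤ 2 * (G g S).card := by
    intro S
    by_cases hS : G g S = S
    · rw [hS, hS]
      omega
    · exact (hSI S hS).le
  obtain ⟨⟨P, Y⟩, hK, hmin⟩ := exists_min_image
    (univ.filter fun q : (V → Finset V) × (V → Finset V) => Compat g q.1 q.2)
    (fun q => cost g q.1 q.2)
    ⟨(fun u => {u}, fun u => {u}), by
      refine mem_filter.2 ⟨mem_univ _, by simp, by simp, ?_⟩
      intro u x h1 h2
      simp only [G, singleton_biUnion] at h1 h2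
      exact hanti u x h1 h2⟩
  have h : Compat g P Y := (mem_filter.1 hK).2
  obtain ⟨P1, T, hc, hle⟩ := improve hr h
  have hm := hmin (P1, T) (mem_filter.2 ⟨mem_univ _, hc⟩)
  obtain ⟨u0, hu0⟩ := exists_nonclosed hr hout h
  have r1 : ∑ u, (Fintype.card V + 1 + (P u).card) <
      ∑ u, (2 * (G g (P u)).card + (univ \ G g ((G g (P u)).erase u)).card) := by
    refine sum_lt_sum (fun u _ => ?_) ⟨u0, mem_univ _, ?_⟩
    · have := h.row_bound hr u
      have := hSI' (P u)
      omega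
    · have := h.row_bound hr u0
      have := hSI (P u0) hu0
      omega
  have r2 : ∑ u, (Fintype.card V + 1 + (Y u).card) ≤
      ∑ u, (2 * (G g (Y u)).card + (univ \ G g ((G g (Y u)).erase u)).card) := by
    refine sum_le_sum (fun u _ => ?_)
    have := h.symm.row_bound hr u
    have := hSI' (Y u)
    omega
  simp only [sum_add_distrib, ← mul_sum] at r1 r2 hle
  simp only at hm
  have e : cost g P Y = ∑ u, ((G g (P u)).card : ℤ) + ∑ u, ((G g (Y u)).card : ℤ) -
      ∑ u, ((P u).card : ℤ) - ∑ u, ((Y u).card : ℤ) := rfl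
  have s7 : (∑ _u : V, (1 : ℤ)) = ((∑ _u : V, 1 : ℕ) : ℤ) := by simp
  rw [s7] at hle
  simp only [← Nat.cast_sum] at hle e
  omega

end Vale.Agent.P038
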