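import Mathlib
import Vale.Agent.P038.Pairs

namespace Vale.Agent.P038

open Finset

variable {V : Type*} [DecidableEq V] [Fintype V]

/-- A counterexample, described by closed out-neighbourhoods. -/
def Bad (g : V → Finset V) : Prop :=
  (∀ v, v ∈ g v) ∧ (∀ u v, v ∈ g u → u ∈ g v → u = v) ∧
    ∀ v, (G g (g v)).card + 1 < 2 * (g v).card

omit [Fintype V] in
lemma prune {g : V → Finset V} (hg : Bad g) (S T' : Finset V) (hT' : T' ⊆ G g S \ S)
    (hmin : ∀ U ⊆ G g S \ S,
      (G g T' \ S).card + 2 * U.card ≤ (G g U \ S).card + 2 * T'.card) :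
    Bad fun v => if v ∈ S then g v \ ((G g S \ S) \ T') else g v := by
  set g' : V → Finset V := fun v => if v ∈ S then g v \ ((G g S \ S) \ T') else g v with hg'
  have hsub : ∀ v, g' v ⊆ g v := by
    intro v
    simp only [hg']
    split_ifs
    · exact sdiff_subset
    · exact Subset.refl _
  have hG : ∀ v, G g' (g' v) ⊆ G g (g v) := by
    intro v x hx
    obtain ⟨s, hs, hx⟩ := mem_G.1 hx
    exact mem_G.2 ⟨s, hsub v hs, hsub s hx⟩
  refine ⟨fun v => ?_, fun u v h1 h2 => hg.2.1 u v (hsub u h1) (hsub v h2), fun v => ?_⟩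
  · simp only [hg']
    split_ifs with hv
    · refine mem_sdiff.2 ⟨hg.1 v, fun hc => ?_⟩
      exact (mem_sdiff.1 (mem_sdiff.1 hc).1).2 hv
    · exact hg.1 v
  · have h0 := hg.2.2 v
    by_cases hv : v ∈ S
    · set X : Finset V := g v ∩ ((G g S \ S) \ T') with hX
      have e1 : g' v = g v \ ((G g S \ S) \ T') := by simp only [hg', if_pos hv]
      have e2 : (g' v).card + X.card = (g v).card := by
        rw [e1, hX]
        exact card_sdiff_add_card_inter _ _
      have e3 : Disjoint T' X := by
        rw [disjoint_left]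
        intro a ha hb
        exact (mem_sdiff.1 (mem_inter.1 hb).2).2 ha
      have e4 := hmin (T' ∪ X) (union_subset hT' (inter_subset_right.trans sdiff_subset))
      rw [card_union_of_disjoint e3] at e4
      have e5 : G g (T' ∪ X) \ S ⊆ (G g T' \ S) ∪ (G g X \ (S ∪ G g T')) := by
        intro y hy
        obtain ⟨hy1, hy2⟩ := mem_sdiff.1 hy
        obtain ⟨s, hs, hy1⟩ := mem_G.1 hy1
        by_cases hyT : y ∈ G g T'
        · exact mem_union_left _ (mem_sdiff.2 ⟨hyT, hy2⟩)
        · rcases mem_union.1 hs with hs | hs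
          · exact absurd (mem_G.2 ⟨s, hs, hy1⟩) hyT
          · refine mem_union_right _ (mem_sdiff.2 ⟨mem_G.2 ⟨s, hs, hy1⟩, ?_⟩)
            simp [hy2, hyT]
      have e6 := (card_le_card e5).trans (card_union_le _ _)
      have e7 : ∀ a ∈ S, g' a ⊆ S ∪ T' := by
        intro a ha b hb
        simp only [hg', if_pos ha] at hb
        obtain ⟨hb1, hb2⟩ := mem_sdiff.1 hb
        by_contra hc
        simp only [mem_union, not_or] at hc
        exact hb2 (mem_sdiff.2 ⟨mem_sdiff.2 ⟨mem_G.2 ⟨a, ha, hb1⟩, hc.1⟩, hc.2⟩)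
      have e8 : G g' (g' v) ⊆ S ∪ G g T' := by
        intro y hy
        obtain ⟨a, ha, hy⟩ := mem_G.1 hy
        rcases mem_union.1 (e7 v hv ha) with ha' | ha'
        · rcases mem_union.1 (e7 a ha' hy) with hy' | hy'
          · exact mem_union_left _ hy'
          · exact mem_union_right _ (mem_G.2 ⟨y, hy', hg.1 y⟩)
        · exact mem_union_right _ (mem_G.2 ⟨a, ha', hsub a hy⟩)
      have e9 : Disjoint (G g' (g' v)) (G g X \ (S ∪ G g T')) := by
        rw [disjoint_left]
        intro a ha hb
        exact (mem_sdiff.1 hb).2 (e8 ha)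
      have e10 : G g' (g' v) ∪ (G g X \ (S ∪ G g T')) ⊆ G g (g v) :=
        union_subset (hG v) (sdiff_subset.trans (G_mono inter_subset_left))
      have e11 := card_le_card e10
      rw [card_union_of_disjoint e9] at e11
      omega
    · have e1 : g' v = g v := by simp only [hg', if_neg hv]
      have := card_le_card (hG v)
      rw [e1] at this ⊢
      omega

theorem not_bad [Nonempty V] (g : V → Finset V) : ¬ Bad g := by
  classical
  intro hg0
  obtain ⟨g, hK, hmin⟩ := exists_min_image (univ.filter fun g : V → Finset V => Bad g)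
    (fun g => ∑ v, (g v).card) ⟨g, mem_filter.2 ⟨mem_univ _, hg0⟩⟩
  have hg : Bad g := (mem_filter.1 hK).2
  refine no_SI hg.1 hg.2.1 (fun v => ?_) (fun S hS => ?_)
  · by_contra hc
    push Not at hc
    have e1 : g v = {v} := eq_singleton_iff_unique_mem.2 ⟨hg.1 v, hc⟩
    have := hg.2.2 v
    rw [e1, G, singleton_biUnion, e1] at this
    simp at this
  · have hSG : ∀ U, U ⊆ G g U := fun U x hx => mem_G.2 ⟨x, hx, hg.1 x⟩
    have main : ∀ T' ⊆ G g S \ S, (∀ U ⊆ G g S \ S,
        (G g T' \ S).card + 2 * U.card ≤ (G g U \ S).card + 2 * T'.card) → T' = G g S \ S := by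
      intro T' hT' hm
      by_contra hne
      have h1 := hmin _ (mem_filter.2 ⟨mem_univ _, prune hg S T' hT' hm⟩)
      obtain ⟨x, hx1, hx2⟩ := exists_of_ssubset (ssubset_of_subset_of_ne hT' hne)
      obtain ⟨s, hs, hxs⟩ := mem_G.1 (mem_sdiff.1 hx1).1
      refine absurd h1 (not_le.2 (sum_lt_sum (fun v _ => ?_) ⟨s, mem_univ _, ?_⟩))
      · split_ifs
        · exact card_le_card sdiff_subset
        · exact le_rfl
      · rw [if_pos hs]
        refine card_lt_card (ssubset_of_subset_of_ne sdiff_subset fun hc => ?_)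
        rw [← hc] at hxs
        exact (mem_sdiff.1 hxs).2 (mem_sdiff.2 ⟨hx1, hx2⟩)
    obtain ⟨T', hT', hm⟩ := exists_min_image (G g S \ S).powerset
      (fun U => ((G g U \ S).card : ℤ) - 2 * U.card) ⟨∅, empty_mem_powerset _⟩
    have hm' : ∀ U ⊆ G g S \ S,
        (G g T' \ S).card + 2 * U.card ≤ (G g U \ S).card + 2 * T'.card := by
      intro U hU
      have := hm U (mem_powerset.2 hU)
      omega
    have e1 := main T' (mem_powerset.1 hT') hm'
    subst e1
    have e2 : (G g (G g S \ S) \ S).card < 2 * (G g S \ S).card := by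
      by_contra hc
      have e3 := main ∅ (empty_subset _) (fun U hU => by
        have := hm' U hU
        simp only [G, biUnion_empty, empty_sdiff, card_empty] at this hc ⊢
        omega)
      apply hS
      exact Subset.antisymm (sdiff_eq_empty_iff_subset.1 e3.symm) (hSG S)
    have e4 : G g (G g S) ⊆ S ∪ (G g (G g S \ S) \ S) := by
      intro y hy
      by_cases hyS : y ∈ S
      · exact mem_union_left _ hyS
      · refine mem_union_right _ (mem_sdiff.2 ⟨?_, hyS⟩)
        obtain ⟨a, ha, hy⟩ := mem_G.1 hy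
        by_cases haS : a ∈ S
        · exact hSG _ (mem_sdiff.2 ⟨mem_G.2 ⟨a, haS, hy⟩, hyS⟩)
        · exact mem_G.2 ⟨a, mem_sdiff.2 ⟨ha, haS⟩, hy⟩
    have e5 := (card_le_card e4).trans (card_union_le _ _)
    have e6 := card_sdiff_add_card_eq_card (hSG S)
    omega

end Vale.Agent.P038
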